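import Vale.Agent.P331.H250.Ker
import Vale.Agent.P331.H379.JLabel

/-!
# `J*` for two exclusive thinnings of a finite set
-/

set_option autoImplicit false
set_option linter.unusedSectionVars false

namespace Vale.Agent.P331.H225

open Finset Vale.Agent.P331.H489 Vale.Agent.P331.H250 Vale.Agent.P331.H379
open scoped Classical

variable {E : Type*} [Fintype E]

theorem bw2_nonneg {a b : E → ℝ} (ha : ∀ e, 0 ≤ a e) (hb : ∀ e, 0 ≤ b e)
    (hab : ∀ e, a e + b e ≤ 1) (H : Finset E) (e : E) (l : Option Bool) : 0 ≤ bw2 a b H e l := by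
  have h1 := ha e
  have h2 := hb e
  have h3 := hab e
  unfold bw2
  split_ifs <;> linarith

theorem bw2_sum (a b : E → ℝ) (H : Finset E) (e : E) : ∑ l, bw2 a b H e l = 1 := by
  rw [Fintype.sum_option, Fintype.sum_bool]
  unfold bw2
  by_cases he : e ∈ H
  · simp [he]
  · simp [he]

theorem bw2_supp {a b : E → ℝ} {H : Finset E} {e : E} {l : Option Bool}
    (h : bw2 a b H e l ≠ 0) (hl : l ≠ none) : e ∈ H := by
  by_contra he
  apply h
  simp [bw2, he, hl]

theorem lset_disj {L : Type*} [Fintype L] [DecidableEq L] {l l' : L} (h : l ≠ l') (ω : E → L) :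
    Disjoint (lset l ω) (lset l' ω) := by
  rw [Finset.disjoint_left]
  intro e he he'
  rw [mem_lset] at he he'
  exact h (he.symm.trans he')

/-- inequality on the support of `T2` -/
theorem T2_mono {a b : E → ℝ} (ha : ∀ e, 0 ≤ a e) (hb : ∀ e, 0 ≤ b e)
    (hab : ∀ e, a e + b e ≤ 1) (H : Finset E) {F G : Finset E → Finset E → ℝ}
    (h : ∀ V U, V ⊆ H → U ⊆ H → Disjoint V U → F V U ≤ G V U) : T2 a b H F ≤ T2 a b H G := by
  unfold T2
  refine EX_mono_supp (bw2_nonneg ha hb hab H) fun ω hω => ?_
  refine h _ _ ?_ ?_ (lset_disj (by simp) ω)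
  · intro e he
    rw [mem_lset] at he
    exact bw2_supp (hω e) (by rw [he]; simp)
  · intro e he
    rw [mem_lset] at he
    exact bw2_supp (hω e) (by rw [he]; simp)

theorem T2_congr {a b : E → ℝ} {H : Finset E} {F G : Finset E → Finset E → ℝ}
    (h : ∀ V U, V ⊆ H → U ⊆ H → Disjoint V U → F V U = G V U) : T2 a b H F = T2 a b H G := by
  unfold T2
  refine EX_congr_supp fun ω hω => ?_
  refine h _ _ ?_ ?_ (lset_disj (by simp) ω)
  · intro e he
    rw [mem_lset] at he
    exact bw2_supp (hω e) (by rw [he]; simp)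
  · intro e he
    rw [mem_lset] at he
    exact bw2_supp (hω e) (by rw [he]; simp)

theorem T2_const (a b : E → ℝ) (H : Finset E) (c : ℝ) : T2 a b H (fun _ _ => c) = c :=
  EX_one _ (bw2_sum a b H) c

theorem T2_nonneg {a b : E → ℝ} (ha : ∀ e, 0 ≤ a e) (hb : ∀ e, 0 ≤ b e)
    (hab : ∀ e, a e + b e ≤ 1) (H : Finset E) {F : Finset E → Finset E → ℝ}
    (h : ∀ V U, V ⊆ H → U ⊆ H → Disjoint V U → 0 ≤ F V U) : 0 ≤ T2 a b H F := by
  rw [← T2_const a b H 0]
  exact T2_mono ha hb hab H h

theorem T2_add (a b : E → ℝ) (H : Finset E) (F G : Finset E → Finset E → ℝ) :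
    T2 a b H (fun V U => F V U + G V U) = T2 a b H F + T2 a b H G := EX_add _ _ _

theorem T2_mul (a b : E → ℝ) (H : Finset E) (c : ℝ) (F : Finset E → Finset E → ℝ) :
    T2 a b H (fun V U => c * F V U) = c * T2 a b H F := EX_mul _ _ _

theorem T2_sum {ι : Type*} (s : Finset ι) (a b : E → ℝ) (H : Finset E)
    (F : ι → Finset E → Finset E → ℝ) :
    T2 a b H (fun V U => ∑ i ∈ s, F i V U) = ∑ i ∈ s, T2 a b H (F i) := EX_sum _ _ _

theorem union_flip {U : Finset E} {ω : E → Option Bool} (hU : ∀ e ∈ U, ω e = some true) :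
    lset (some true) (H379.flip (some false) U ω) ∪ lset (some false) (H379.flip (some false) U ω) =
      lset (some true) ω ∪ lset (some false) ω := by
  ext e
  simp only [mem_union, mem_lset, H379.flip]
  by_cases he : e ∈ U
  · simp [he, hU e he]
  · simp [he]

theorem hole_flip {U : Finset E} {ω : E → Option Bool} :
    lset (some false) (H379.flip (some false) U ω) = lset (some false) ω ∪ U := by
  ext e
  simp only [mem_union, mem_lset, H379.flip]
  by_cases he : e ∈ U
  · simp [he]
  · simp [he]

/-- **`J*` for two exclusive thinnings** `V` (rate `a`), `G` (rate `b`) of `H`. -/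
theorem jstar_T2 {a b : E → ℝ} (ha : ∀ e, 0 ≤ a e) (hb : ∀ e, 0 ≤ b e)
    (hab : ∀ e, a e + b e ≤ 1) {lam : ℝ} (hlam : 1 ≤ lam) (hl : ∀ e, lam * a e ≤ b e)
    (H : Finset E) (k : ℕ)
    (F : Finset E → Finset E → Prop) (hF : ∀ M A B, A ⊆ B → F M A → F M B)
    (Ev : Finset E → Finset E → Prop) (K : Finset E → Finset E → Finset E)
    (hK : ∀ V G, Ev V G → K V G ⊆ V ∧ F (V ∪ G) (K V G))
    (ψ : Finset E → Finset E → Prop)
    (hψ : ∀ V G, V ⊆ H → G ⊆ H → Disjoint V G → Ev V G → ∀ U ⊆ K V G, U.card ≤ k →
      F (V ∪ G) (G ∪ U) → ψ (V ∪ G) (G ∪ U)) :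
    T2 a b H (fun V G => if Ev V G then 1 else 0) ≤ (lam ^ (k + 1))⁻¹ +
      T2 a b H (fun V G => if F (V ∪ G) G ∧ ψ (V ∪ G) G then 1 else 0) := by
  set w := bw2 a b H with hw
  have hw0 : ∀ e l, 0 ≤ w e l := bw2_nonneg ha hb hab H
  have hwl : ∀ e, lam * w e (some true) ≤ w e (some false) := by
    intro e
    rw [hw]
    by_cases he : e ∈ H
    · simpa [bw2, he] using hl e
    · simp [bw2, he]
  obtain ⟨U, h1, h2, h3⟩ := jstar_label' (some true) (some false) (by simp) w hw0 lam hlam hwl
    (fun ω A => F (lset (some true) ω ∪ lset (some false) ω) A)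
    (fun ω A B hAB h => hF _ A B hAB h)
    (fun ω ω' hs A h => by
      have e1 : lset (some true) ω ∪ lset (some false) ω =
          lset (some true) ω' ∪ lset (some false) ω' := by
        ext e
        simp only [mem_union, mem_lset]
        rcases hs e with h4 | ⟨h4, h5⟩
        · rw [h4]
        · exact ⟨fun _ => h5, fun _ => h4⟩
      rwa [← e1])
    (fun ω => Ev (lset (some true) ω) (lset (some false) ω))
    (fun ω => K (lset (some true) ω) (lset (some false) ω))
    (fun ω h => ⟨fun e he => mem_lset.1 ((hK _ _ h).1 he), (hK _ _ h).2⟩)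
  have h3' := h3 (k + 1) (bw2_sum a b H)
  have hlk : 0 < lam ^ (k + 1) := pow_pos (by linarith) _
  have h4 : EX w (fun ω => if Ev (lset (some true) ω) (lset (some false) ω) ∧
      k + 1 ≤ (U ω).card then (1 : ℝ) else 0) ≤ (lam ^ (k + 1))⁻¹ := by
    rw [← one_div, le_div_iff₀ hlk, mul_comm]
    exact h3'
  have h5 := h2 (fun ω => if ψ (lset (some true) ω ∪ lset (some false) ω)
    (lset (some false) ω) then 1 else 0) (fun ω => by split_ifs <;> norm_num)
  unfold T2
  calc EX w (fun ω => if Ev (lset (some true) ω) (lset (some false) ω) then (1 : ℝ) else 0)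
      ≤ EX w (fun ω => (if Ev (lset (some true) ω) (lset (some false) ω) ∧
          k + 1 ≤ (U ω).card then (1 : ℝ) else 0) +
          (if Ev (lset (some true) ω) (lset (some false) ω) then
            (if ψ (lset (some true) (H379.flip (some false) (U ω) ω) ∪
              lset (some false) (H379.flip (some false) (U ω) ω))
              (lset (some false) (H379.flip (some false) (U ω) ω)) then 1 else 0) else 0)) := by
        refine EX_mono_supp hw0 fun ω hω => ?_
        by_cases hE : Ev (lset (some true) ω) (lset (some false) ω)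
        · rw [if_pos hE, if_pos hE]
          by_cases hk : k + 1 ≤ (U ω).card
          · rw [if_pos ⟨hE, hk⟩]
            split_ifs <;> norm_num
          · rw [if_neg (fun h => hk h.2), zero_add]
            have hU := h1 ω hE
            have hUv : ∀ e ∈ U ω, ω e = some true := fun e he =>
              mem_lset.1 ((hK _ _ hE).1 (hU.1 he))
            rw [union_flip hUv, hole_flip, if_pos]
            refine hψ _ _ ?_ ?_ (lset_disj (by simp) ω) hE _ hU.1 (by omega) ?_
            · intro e he
              rw [mem_lset] at he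
              exact bw2_supp (hω e) (by rw [he]; simp)
            · intro e he
              rw [mem_lset] at he
              exact bw2_supp (hω e) (by rw [he]; simp)
            · exact hU.2
        · rw [if_neg hE, if_neg hE, if_neg (fun h => hE h.1), zero_add]
    _ = EX w (fun ω => if Ev (lset (some true) ω) (lset (some false) ω) ∧
          k + 1 ≤ (U ω).card then (1 : ℝ) else 0) +
        EX w (fun ω => if Ev (lset (some true) ω) (lset (some false) ω) then
            (if ψ (lset (some true) (H379.flip (some false) (U ω) ω) ∪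
              lset (some false) (H379.flip (some false) (U ω) ω))
              (lset (some false) (H379.flip (some false) (U ω) ω)) then 1 else 0) else 0) :=
        EX_add _ _ _
    _ ≤ (lam ^ (k + 1))⁻¹ + EX w (fun ω => if F (lset (some true) ω ∪ lset (some false) ω)
          (lset (some false) ω) then (if ψ (lset (some true) ω ∪ lset (some false) ω)
          (lset (some false) ω) then 1 else 0) else 0) := add_le_add h4 h5
    _ = _ := by
        congr 2
        funext ω
        dsimp only
        by_cases hF' : F (lset (some true) ω ∪ lset (some false) ω) (lset (some false) ω)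
        · by_cases hψ' : ψ (lset (some true) ω ∪ lset (some false) ω) (lset (some false) ω)
          · rw [if_pos hF', if_pos hψ', if_pos ⟨hF', hψ'⟩]
          · rw [if_pos hF', if_neg hψ', if_neg (fun h => hψ' h.2)]
        · rw [if_neg hF', if_neg (fun h => hF' h.1)]

end Vale.Agent.P331.H225
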