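import Vale.Agent.P331.H225.J2

/-!
# The luck lemma

`D` is an up-set of subsets of a finite set; all averages are over thinnings of the sample.
-/

set_option autoImplicit false
set_option linter.unusedSectionVars false

namespace Vale.Agent.P331.H225

open Finset Vale.Agent.P331.H489 Vale.Agent.P331.H250 Vale.Agent.P331.H379
open scoped Classical

variable {E : Type*} [Fintype E]

/-- thinning with a constant rate -/
noncomputable def Th (r : ℝ) (S : Finset E) (f : Finset E → ℝ) : ℝ := TH (fun _ => r) S f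

section basic

variable {r : ℝ} {S : Finset E} {f g : Finset E → ℝ}

theorem Th_mono (h0 : 0 ≤ r) (h1 : r ≤ 1) (h : ∀ G, G ⊆ S → f G ≤ g G) :
    Th r S f ≤ Th r S g := TH_mono (fun _ => h0) (fun _ => h1) S h

theorem Th_nonneg (h0 : 0 ≤ r) (h1 : r ≤ 1) (h : ∀ G, G ⊆ S → 0 ≤ f G) : 0 ≤ Th r S f :=
  TH_nonneg (fun _ => h0) (fun _ => h1) S h

theorem Th_congr (h : ∀ G, G ⊆ S → f G = g G) : Th r S f = Th r S g :=
  TH_congr (fun _ _ => rfl) h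

theorem Th_const (r : ℝ) (S : Finset E) (c : ℝ) : Th r S (fun _ => c) = c := TH_const _ _ _

theorem Th_add (r : ℝ) (S : Finset E) (f g : Finset E → ℝ) :
    Th r S (fun G => f G + g G) = Th r S f + Th r S g := TH_add _ _ _ _

theorem Th_sub (r : ℝ) (S : Finset E) (f g : Finset E → ℝ) :
    Th r S (fun G => f G - g G) = Th r S f - Th r S g := TH_sub _ _ _ _

theorem Th_mul (r : ℝ) (S : Finset E) (c : ℝ) (f : Finset E → ℝ) :
    Th r S (fun G => c * f G) = c * Th r S f := TH_mul _ _ _ _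

theorem Th_sum {ι : Type*} (s : Finset ι) (r : ℝ) (S : Finset E) (f : ι → Finset E → ℝ) :
    Th r S (fun G => ∑ i ∈ s, f i G) = ∑ i ∈ s, Th r S (f i) := TH_sum _ _ _ _

theorem Th_le_one (h0 : 0 ≤ r) (h1 : r ≤ 1) (h : ∀ G, G ⊆ S → f G ≤ 1) : Th r S f ≤ 1 := by
  rw [← Th_const r S 1]
  exact Th_mono h0 h1 h

end basic

theorem ind0 {P : Prop} [Decidable P] : (0 : ℝ) ≤ if P then 1 else 0 := by split_ifs <;> norm_num

theorem ind1 {P : Prop} [Decidable P] : (if P then (1 : ℝ) else 0) ≤ 1 := by split_ifs <;> norm_num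

theorem dni0 {P : Prop} [Decidable P] : (0 : ℝ) ≤ if P then 0 else 1 := by split_ifs <;> norm_num

theorem dni1 {P : Prop} [Decidable P] : (if P then (0 : ℝ) else 1) ≤ 1 := by split_ifs <;> norm_num

/-- the probability that `A` and a thinning of `R` together do not lie in `D` -/
noncomputable def inn (D : Finset E → Prop) (θ : ℝ) (R A : Finset E) : ℝ :=
  Th θ R (fun N => if D (A ∪ N) then 0 else 1)

/-- `Y` is good for the pool `G` -/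
def good (D : Finset E → Prop) (θ ε : ℝ) (k : ℕ) (S Y G : Finset E) : Prop :=
  Y.card ≤ k ∧ inn D θ (S \ G) (Y ∪ G) ≤ ε / ((Y.card : ℝ) + 1)

/-- the probability that `X` contains no good set -/
noncomputable def fv (D : Finset E → Prop) (γ θ ε : ℝ) (k : ℕ) (S X : Finset E) : ℝ :=
  Th γ S (fun G => if ∃ Y ⊆ X, good D θ ε k S Y G then 0 else 1)

/-- `X` is a violating set -/
def vio (D : Finset E → Prop) (γ θ ε τ : ℝ) (k Z : ℕ) (S X : Finset E) : Prop :=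
  X.card ≤ Z ∧ fv D γ θ ε k S X ≤ τ / ((X.card : ℝ) + 1)

/-- `f` matters at `A` -/
def pv (D : Finset E → Prop) (f : E) (A : Finset E) : Prop := D (insert f A) ∧ ¬ D A

/-- `f` has a large influence in some small context -/
def Inf (D : Finset E → Prop) (θ δ : ℝ) (k : ℕ) (f : E) (V S G : Finset E) : Prop :=
  ∃ U ⊆ V, U.card ≤ k ∧ δ ≤ Th θ (S \ G) (fun N => if pv D f (U ∪ G ∪ N) then 1 else 0)

theorem exists_minimal' {P : Finset E → Prop} (U : Finset E) (hU : P U) :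
    ∃ X ⊆ U, P X ∧ ∀ X' ⊂ X, ¬ P X' := by
  induction U using Finset.strongInduction with
  | H U ih =>
    by_cases h : ∃ X' ⊂ U, P X'
    · obtain ⟨X', hX', hP⟩ := h
      obtain ⟨X, hX, h1, h2⟩ := ih X' hX' hP
      exact ⟨X, hX.trans hX'.subset, h1, h2⟩
    · push Not at h
      exact ⟨U, subset_rfl, hU, h⟩

/-- a good set which is no longer good without `f` -/
theorem good_drop {D : Finset E → Prop} (hD : ∀ A B, A ⊆ B → D A → D B) {θ ε : ℝ} (hε : 0 ≤ ε)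
    {k : ℕ} {S Y G : Finset E} {f : E} (hf : f ∈ Y) (hY : good D θ ε k S Y G)
    (hn : ¬ good D θ ε k S (Y.erase f) G) :
    ε / ((k : ℝ) + 1) ^ 2 ≤
      Th θ (S \ G) (fun N => if pv D f (Y.erase f ∪ G ∪ N) then 1 else 0) := by
  obtain ⟨hc, h1⟩ := hY
  have hce : (Y.erase f).card ≤ k := (card_le_card (erase_subset _ _)).trans hc
  have h2 : ε / (((Y.erase f).card : ℝ) + 1) < inn D θ (S \ G) (Y.erase f ∪ G) := by
    by_contra h
    exact hn ⟨hce, not_lt.1 h⟩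
  have h3 : (((Y.erase f).card : ℝ) + 1) = Y.card := by
    rw [← Nat.cast_succ, Nat.succ_eq_add_one, card_erase_add_one hf]
  rw [h3] at h2
  have h4 : inn D θ (S \ G) (Y.erase f ∪ G) - inn D θ (S \ G) (Y ∪ G) =
      Th θ (S \ G) (fun N => if pv D f (Y.erase f ∪ G ∪ N) then 1 else 0) := by
    unfold inn
    rw [← Th_sub]
    refine Th_congr fun N _ => ?_
    have e1 : insert f (Y.erase f ∪ G ∪ N) = Y ∪ G ∪ N := by
      rw [← insert_union, ← insert_union, insert_erase hf]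
    unfold pv
    rw [e1]
    by_cases h5 : D (Y.erase f ∪ G ∪ N)
    · have h6 : D (Y ∪ G ∪ N) := by
        rw [← e1]
        exact hD _ _ (subset_insert _ _) h5
      rw [if_pos h5, if_pos h6, if_neg (fun h => h.2 h5), sub_zero]
    · by_cases h6 : D (Y ∪ G ∪ N)
      · rw [if_neg h5, if_pos h6, if_pos ⟨h6, h5⟩, sub_zero]
      · rw [if_neg h5, if_neg h6, if_neg (fun h => h6 h.1), sub_self]
  rw [← h4]
  have hy : (1 : ℝ) ≤ Y.card := by exact_mod_cast card_pos.2 ⟨f, hf⟩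
  have hyk : (Y.card : ℝ) ≤ k := by exact_mod_cast hc
  have h5 : ε / ((k : ℝ) + 1) ^ 2 ≤ ε / (Y.card : ℝ) - ε / ((Y.card : ℝ) + 1) := by
    have e2 : ε / (Y.card : ℝ) - ε / ((Y.card : ℝ) + 1) =
        ε / ((Y.card : ℝ) * ((Y.card : ℝ) + 1)) := by
      field_simp
      ring
    rw [e2]
    refine div_le_div_of_nonneg_left hε (by positivity) ?_
    nlinarith
  linarith

/-- dropping elements from a set which contains a good set -/
theorem drop {D : Finset E → Prop} (hD : ∀ A B, A ⊆ B → D A → D B) {θ ε : ℝ} (hε : 0 ≤ ε)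
    {k : ℕ} {S G V X X' : Finset E} (hX : X ⊆ V) (h : ∃ Y ⊆ X, good D θ ε k S Y G)
    (hn : ¬ ∃ Y ⊆ X', good D θ ε k S Y G) :
    ∃ f ∈ X \ X', Inf D θ (ε / ((k : ℝ) + 1) ^ 2) k f V S G := by
  obtain ⟨Y₀, hY₀, hg⟩ := h
  obtain ⟨Y, hY, h1, h2⟩ := exists_minimal' (P := fun Y => good D θ ε k S Y G) Y₀ hg
  have h3 : ¬ Y ⊆ X' := fun h => hn ⟨Y, h, h1⟩
  rw [Finset.not_subset] at h3
  obtain ⟨f, hf, hf'⟩ := h3
  refine ⟨f, mem_sdiff.2 ⟨hY₀ (hY hf), hf'⟩, Y.erase f, ?_, ?_, ?_⟩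
  · exact (erase_subset _ _).trans (hY.trans (hY₀.trans hX))
  · exact (card_le_card (erase_subset _ _)).trans h1.1
  · exact good_drop hD hε hf h1 (h2 _ (erase_ssubset hf))

/-- the family of the sets which contain, for most pools, a set with a very small average -/
def Fam (D : Finset E → Prop) (γ' θ' ε' a : ℝ) (k : ℕ) (R A : Finset E) : Prop :=
  Th γ' R (fun G => if ∃ Y ⊆ A, Y.card ≤ k ∧ inn D θ' (R \ G) (Y ∪ G) ≤ ε' then 0 else 1) ≤ a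

theorem Fam_mono {D : Finset E → Prop} {γ' θ' ε' a : ℝ} (h0 : 0 ≤ γ') (h1 : γ' ≤ 1) {k : ℕ}
    {R A B : Finset E} (hAB : A ⊆ B) (h : Fam D γ' θ' ε' a k R A) :
    Fam D γ' θ' ε' a k R B := by
  refine le_trans (Th_mono h0 h1 fun G _ => ?_) h
  by_cases h2 : ∃ Y ⊆ A, Y.card ≤ k ∧ inn D θ' (R \ G) (Y ∪ G) ≤ ε'
  · obtain ⟨Y, hY, h3⟩ := h2
    rw [if_pos ⟨Y, hY.trans hAB, h3⟩]
    exact dni0
  · rw [if_neg h2]
    exact dni1

theorem sdiff_swap (S A B : Finset E) : (S \ A) \ B = (S \ B) \ A := by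
  ext e
  simp only [mem_sdiff]
  tauto

/-- **Transfer** to the sample without a fresh pool. -/
theorem transfer {D : Finset E → Prop} {γ γ' θ θ' ε ε' a : ℝ} {k : ℕ}
    (hγ0 : 0 ≤ γ) (hγ1 : γ ≤ 1) (hγ'0 : 0 ≤ γ') (hγ'1 : γ' ≤ 1) (hθ0 : 0 ≤ θ') (hθ1 : θ' ≤ 1)
    (r1 : (1 - γ) * γ' = γ) (r2 : (1 - γ') * θ' = θ) (hε : 0 ≤ ε) (hε' : 0 < ε') (ha : 0 < a)
    (S X : Finset E) :
    Th γ S (fun G => if Fam D γ' θ' ε' a k (S \ G) X then 0 else 1) ≤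
      (fv D γ θ ε k S X + ε / ε') / a := by
  rw [le_div_iff₀ ha, mul_comm]
  have h1 : a * Th γ S (fun G => if Fam D γ' θ' ε' a k (S \ G) X then 0 else 1) ≤
      Th γ S (fun G₂ => Th γ' (S \ G₂) (fun G => if ∃ Y ⊆ X, Y.card ≤ k ∧
        inn D θ' ((S \ G₂) \ G) (Y ∪ G) ≤ ε' then 0 else 1)) := by
    rw [← Th_mul]
    refine Th_mono hγ0 hγ1 fun G₂ _ => ?_
    by_cases h : Fam D γ' θ' ε' a k (S \ G₂) X
    · rw [if_pos h, mul_zero]
      exact Th_nonneg hγ'0 hγ'1 fun G _ => dni0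
    · rw [if_neg h, mul_one]
      unfold Fam at h
      exact (not_le.1 h).le
  refine h1.trans ?_
  have h2 : Th γ S (fun G₂ => Th γ' (S \ G₂) (fun G => if ∃ Y ⊆ X, Y.card ≤ k ∧
        inn D θ' ((S \ G₂) \ G) (Y ∪ G) ≤ ε' then (0 : ℝ) else 1)) =
      Th γ S (fun G => Th γ' (S \ G) (fun G₂ => if ∃ Y ⊆ X, Y.card ≤ k ∧
        inn D θ' ((S \ G₂) \ G) (Y ∪ G) ≤ ε' then (0 : ℝ) else 1)) :=
    TH_TH_swap (fun _ => γ) (fun _ => γ') (fun _ => γ) (fun _ => γ') S (fun _ _ => r1)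
      (fun _ _ => r1) (fun G₂ G => if ∃ Y ⊆ X, Y.card ≤ k ∧
        inn D θ' ((S \ G₂) \ G) (Y ∪ G) ≤ ε' then (0 : ℝ) else 1)
  rw [h2]
  have h3 : fv D γ θ ε k S X + ε / ε' = Th γ S (fun G =>
      (if ∃ Y ⊆ X, good D θ ε k S Y G then 0 else 1) + ε / ε') := by
    rw [Th_add, Th_const]
    rfl
  rw [h3]
  refine Th_mono hγ0 hγ1 fun G _ => ?_
  by_cases h : ∃ Y ⊆ X, good D θ ε k S Y G
  · rw [if_pos h, zero_add]
    obtain ⟨Y, hY, hc, h4⟩ := h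
    rw [le_div_iff₀ hε', mul_comm, ← Th_mul]
    have h5 : Th γ' (S \ G) (fun G₂ => inn D θ' ((S \ G) \ G₂) (Y ∪ G)) =
        inn D θ (S \ G) (Y ∪ G) :=
      TH_TH_snd (fun _ => γ') (fun _ => θ') (fun _ => θ) (S \ G) (fun _ _ => r2)
        (fun N => if D (Y ∪ G ∪ N) then 0 else 1)
    have h6 : inn D θ (S \ G) (Y ∪ G) ≤ ε := by
      refine h4.trans (div_le_self hε ?_)
      have : (0 : ℝ) ≤ Y.card := Nat.cast_nonneg _
      linarith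
    refine le_trans (Th_mono hγ'0 hγ'1 fun G₂ _ => ?_) (h5.le.trans h6)
    by_cases h7 : ∃ Y ⊆ X, Y.card ≤ k ∧ inn D θ' ((S \ G₂) \ G) (Y ∪ G) ≤ ε'
    · rw [if_pos h7, mul_zero]
      exact Th_nonneg hθ0 hθ1 fun _ _ => dni0
    · rw [if_neg h7, mul_one]
      push Not at h7
      have := h7 Y hY hc
      rw [sdiff_swap] at this
      exact this.le
  · rw [if_neg h]
    have h4 : Th γ' (S \ G) (fun G₂ => if ∃ Y ⊆ X, Y.card ≤ k ∧
        inn D θ' ((S \ G₂) \ G) (Y ∪ G) ≤ ε' then (0 : ℝ) else 1) ≤ 1 :=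
      Th_le_one hγ'0 hγ'1 fun _ _ => dni1
    have h5 : 0 ≤ ε / ε' := div_nonneg hε hε'.le
    linarith

/-- **Use of the quenched inequality**: the pool becomes noise. -/
theorem recycle {D : Finset E → Prop} {γ' θ θ' θ₃ ε' a : ℝ} {k : ℕ}
    (hγ'0 : 0 ≤ γ') (hγ'1 : γ' ≤ 1) (hθ0 : 0 ≤ θ₃) (hθ1 : θ₃ ≤ 1)
    (r3 : γ' + (1 - γ') * θ₃ = θ) (ha : 0 ≤ a) (R X : Finset E)
    (hF : Fam D γ' θ' ε' a k R X) (hin : 3 * a < inn D θ R X) :
    a ≤ Th γ' R (fun G => if (∃ Y ⊆ X, Y.card ≤ k ∧ inn D θ' (R \ G) (Y ∪ G) ≤ ε') ∧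
      a < inn D θ₃ (R \ G) (X ∪ G) then 1 else 0) := by
  have h1 : inn D θ R X = Th γ' R (fun G => inn D θ₃ (R \ G) (X ∪ G)) := by
    have h := TH_TH_union (fun _ => γ') (fun _ => θ₃) (fun _ => θ) R (fun _ _ => r3)
      (fun A => if D (X ∪ A) then (0 : ℝ) else 1)
    unfold inn Th
    rw [← h]
    simp only [union_assoc]
  have h2 : inn D θ R X ≤ Th γ' R (fun G =>
      ((if ∃ Y ⊆ X, Y.card ≤ k ∧ inn D θ' (R \ G) (Y ∪ G) ≤ ε' then (0 : ℝ) else 1) +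
      (if (∃ Y ⊆ X, Y.card ≤ k ∧ inn D θ' (R \ G) (Y ∪ G) ≤ ε') ∧
        a < inn D θ₃ (R \ G) (X ∪ G) then 1 else 0)) + a) := by
    rw [h1]
    refine Th_mono hγ'0 hγ'1 fun G _ => ?_
    have h3 : inn D θ₃ (R \ G) (X ∪ G) ≤ 1 := Th_le_one hθ0 hθ1 fun _ _ => dni1
    by_cases h4 : ∃ Y ⊆ X, Y.card ≤ k ∧ inn D θ' (R \ G) (Y ∪ G) ≤ ε'
    · rw [if_pos h4, zero_add]
      by_cases h5 : a < inn D θ₃ (R \ G) (X ∪ G)
      · rw [if_pos ⟨h4, h5⟩]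
        linarith
      · rw [if_neg (fun h => h5 h.2), zero_add]
        exact not_lt.1 h5
    · rw [if_neg h4, if_neg (fun h => h4 h.1)]
      linarith
  rw [Th_add, Th_const, Th_add] at h2
  have h3 := hF
  unfold Fam at h3
  linarith

/-- The quenched inequality in the form used here. -/
def QJ (p γ γ' θ' θ₃ lam : ℝ) (s α : ℕ) (H : Finset E) (D : Finset E → Prop) : Prop :=
  ∀ (k : ℕ) (a ε : ℝ), 0 < a → 0 ≤ ε →
    T2 (fun _ => p) (fun _ => (1 - p) * γ) H (fun V X => Th γ' (H \ (V ∪ X)) (fun G =>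
      if (∃ Y ⊆ X, Y.card ≤ k ∧ inn D θ' ((H \ (V ∪ X)) \ G) (Y ∪ G) ≤ ε) ∧
        a < inn D θ₃ ((H \ (V ∪ X)) \ G) (X ∪ G) then 1 else 0)) ≤
      (a⁻¹) ^ α * (lam ^ k * ε) ^ s

/-- the luck event -/
def Lucky (D : Finset E → Prop) (γ θ ε τ ε₁ τ₁ : ℝ) (k Z k₁ Z₁ : ℕ) (H V : Finset E) : Prop :=
  ∃ X ⊆ V, vio D γ θ ε τ k Z (H \ V) X ∧ ∀ X' ⊆ X, ¬ vio D γ θ ε₁ τ₁ k₁ Z₁ (H \ V) X'

/-- **The luck lemma.** -/
theorem luck {D : Finset E → Prop} (hD : ∀ A B, A ⊆ B → D A → D B)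
    {p γ γ' θ θ' θ₃ ε τ ε₁ τ₁ ε' a lam lam₀ : ℝ} {k Z k₁ Z₁ s α : ℕ} {H Es : Finset E}
    (hp0 : 0 ≤ p) (hp1 : p ≤ 1)
    (hγ0 : 0 ≤ γ) (hγ1 : γ ≤ 1) (hγ'0 : 0 ≤ γ') (hγ'1 : γ' ≤ 1)
    (hθ'0 : 0 ≤ θ') (hθ'1 : θ' ≤ 1) (hθ₃0 : 0 ≤ θ₃) (hθ₃1 : θ₃ ≤ 1)
    (r1 : (1 - γ) * γ' = γ) (r2 : (1 - γ') * θ' = θ) (r3 : γ' + (1 - γ') * θ₃ = θ)
    (hε : 0 ≤ ε) (hτ : 0 ≤ τ) (hε₁ : 0 ≤ ε₁) (hτ₁ : 0 ≤ τ₁) (hε' : 0 < ε') (ha : 0 < a)
    (ha3 : 3 * a * ((k₁ : ℝ) + 1) ≤ ε₁)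
    (hl0 : 1 ≤ lam₀) (hl : lam₀ * p ≤ (1 - p) * γ) (hEs : Es.card ≤ Z₁)
    (hQ : QJ p γ γ' θ' θ₃ lam s α H D) :
    (τ₁ / ((Z₁ : ℝ) + 1) - (τ + ε / ε') / a) *
      Th p H (fun V => if Lucky D γ θ ε τ ε₁ τ₁ k Z k₁ Z₁ H V then 1 else 0) ≤
      (lam₀ ^ (k₁ + 1))⁻¹ + a⁻¹ * ((a⁻¹) ^ α * (lam ^ k * ε') ^ s) +
      ∑ f ∈ H \ Es, Th p H (fun V => Th γ (H \ V) (fun G =>
        if Inf D θ (ε₁ / ((k₁ : ℝ) + 1) ^ 2) k₁ f V (H \ V) G then 1 else 0)) := by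
  -- the chosen sets
  have hch : ∀ V : Finset E, ∃ X : Finset E, Lucky D γ θ ε τ ε₁ τ₁ k Z k₁ Z₁ H V →
      X ⊆ V ∧ vio D γ θ ε τ k Z (H \ V) X ∧ ∀ X' ⊆ X, ¬ vio D γ θ ε₁ τ₁ k₁ Z₁ (H \ V) X' := by
    intro V
    by_cases h : Lucky D γ θ ε τ ε₁ τ₁ k Z k₁ Z₁ H V
    · obtain ⟨X, hX, h1, h2⟩ := h
      exact ⟨X, fun _ => ⟨hX, h1, h2⟩⟩
    · exact ⟨∅, fun h' => absurd h' h⟩
  choose K hK using hch
  obtain ⟨Ev, hEv⟩ : ∃ Ev : Finset E → Finset E → Prop, ∀ V G, Ev V G ↔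
      Lucky D γ θ ε τ ε₁ τ₁ k Z k₁ Z₁ H V ∧ (¬ ∃ Y ⊆ K V, good D θ ε₁ k₁ (H \ V) Y G) ∧
        Fam D γ' θ' ε' a k (H \ (V ∪ G)) (K V) := ⟨_, fun _ _ => Iff.rfl⟩
  have hsd : ∀ V G : Finset E, (H \ V) \ G = H \ (V ∪ G) := fun V G => by
    rw [sdiff_sdiff_left]
    rfl
  -- step 1: pointwise in V
  have h1 : ∀ V ⊆ H, (τ₁ / ((Z₁ : ℝ) + 1) - (τ + ε / ε') / a) *
      (if Lucky D γ θ ε τ ε₁ τ₁ k Z k₁ Z₁ H V then 1 else 0) ≤
      Th γ (H \ V) (fun G => if Ev V G then 1 else 0) +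
      Th γ (H \ V) (fun G => ∑ f ∈ H \ Es,
        if Inf D θ (ε₁ / ((k₁ : ℝ) + 1) ^ 2) k₁ f V (H \ V) G then 1 else 0) := by
    intro V hV
    by_cases hL : Lucky D γ θ ε τ ε₁ τ₁ k Z k₁ Z₁ H V
    · rw [if_pos hL, mul_one]
      obtain ⟨hX, hv, hnv⟩ := hK V hL
      set X := K V with hXdef
      have h2 : τ₁ / ((Z₁ : ℝ) + 1) ≤ fv D γ θ ε₁ k₁ (H \ V) (X ∩ Es) := by
        have h3 := hnv (X ∩ Es) inter_subset_left
        have h4 : (X ∩ Es).card ≤ Z₁ := (card_le_card inter_subset_right).trans hEs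
        have h5 : τ₁ / (((X ∩ Es).card : ℝ) + 1) < fv D γ θ ε₁ k₁ (H \ V) (X ∩ Es) := by
          by_contra h
          exact h3 ⟨h4, not_lt.1 h⟩
        refine le_trans ?_ h5.le
        refine div_le_div_of_nonneg_left hτ₁ (by positivity) ?_
        have : ((X ∩ Es).card : ℝ) ≤ Z₁ := by exact_mod_cast h4
        linarith
      have h3 : fv D γ θ ε₁ k₁ (H \ V) (X ∩ Es) ≤ Th γ (H \ V) (fun G =>
          ((if Fam D γ' θ' ε' a k ((H \ V) \ G) X then 0 else 1) +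
          (if Ev V G then 1 else 0)) + ∑ f ∈ H \ Es,
            if Inf D θ (ε₁ / ((k₁ : ℝ) + 1) ^ 2) k₁ f V (H \ V) G then 1 else 0) := by
        refine Th_mono hγ0 hγ1 fun G hG => ?_
        have hs : (0 : ℝ) ≤ ∑ f ∈ H \ Es,
            if Inf D θ (ε₁ / ((k₁ : ℝ) + 1) ^ 2) k₁ f V (H \ V) G then 1 else 0 :=
          sum_nonneg fun _ _ => ind0
        have hE0 : (0 : ℝ) ≤ if Ev V G then 1 else 0 := ind0
        have hF0 : (0 : ℝ) ≤ if Fam D γ' θ' ε' a k ((H \ V) \ G) X then 0 else 1 := dni0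
        by_cases h4 : ∃ Y ⊆ X ∩ Es, good D θ ε₁ k₁ (H \ V) Y G
        · rw [if_pos h4]
          linarith
        · rw [if_neg h4]
          by_cases h5 : ∃ Y ⊆ X, good D θ ε₁ k₁ (H \ V) Y G
          · obtain ⟨f, hf, hI⟩ := drop hD hε₁ hX h5 h4
            have hfm : f ∈ H \ Es := by
              rw [mem_sdiff, mem_inter] at hf
              rw [mem_sdiff]
              exact ⟨hV (hX hf.1), fun h => hf.2 ⟨hf.1, h⟩⟩
            have h6 := single_le_sum (f := fun f =>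
              if Inf D θ (ε₁ / ((k₁ : ℝ) + 1) ^ 2) k₁ f V (H \ V) G then (1 : ℝ) else 0)
              (fun _ _ => ind0) hfm
            simp only [if_pos hI] at h6
            linarith
          · by_cases h6 : Fam D γ' θ' ε' a k ((H \ V) \ G) X
            · have hE : Ev V G := (hEv V G).2 ⟨hL, h5, by rw [← hsd]; exact h6⟩
              rw [if_pos hE]
              linarith
            · rw [if_neg h6]
              linarith
      rw [Th_add, Th_add] at h3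
      have h4 := transfer (D := D) (k := k) hγ0 hγ1 hγ'0 hγ'1 hθ'0 hθ'1 r1 r2 hε hε' ha (H \ V) X
      have h5 : fv D γ θ ε k (H \ V) X ≤ τ := by
        refine hv.2.trans (div_le_self hτ ?_)
        have : (0 : ℝ) ≤ X.card := Nat.cast_nonneg _
        linarith
      have h6 : (fv D γ θ ε k (H \ V) X + ε / ε') / a ≤ (τ + ε / ε') / a := by
        gcongr
      linarith
    · rw [if_neg hL, mul_zero]
      refine add_nonneg (Th_nonneg hγ0 hγ1 fun _ _ => ind0) (Th_nonneg hγ0 hγ1 fun _ _ =>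
        sum_nonneg fun _ _ => ind0)
  -- step 2: average over V
  have h2 := Th_mono (r := p) (S := H) hp0 hp1 h1
  rw [Th_mul, Th_add] at h2
  refine h2.trans (add_le_add ?_ (le_of_eq ?_))
  swap
  · rw [← Th_sum]
    refine Th_congr fun V _ => ?_
    rw [Th_sum]
  -- step 3: `J*`
  have hpg : ∀ _e : E, 0 ≤ (1 - p) * γ := fun _ => mul_nonneg (by linarith) hγ0
  have hpg1 : ∀ _e : E, p + (1 - p) * γ ≤ 1 := fun _ => by nlinarith
  have h3 : Th p H (fun V => Th γ (H \ V) (fun G => if Ev V G then 1 else 0)) =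
      T2 (fun _ => p) (fun _ => (1 - p) * γ) H (fun V G => if Ev V G then 1 else 0) :=
    TH_TH (fun _ => p) (fun _ => γ) H _
  rw [h3]
  have h4 := jstar_T2 (a := fun _ : E => p) (b := fun _ => (1 - p) * γ) (fun _ => hp0) hpg hpg1
    hl0 (fun _ => hl) H k₁ (fun M A => Fam D γ' θ' ε' a k (H \ M) A)
    (fun M A B hAB h => Fam_mono hγ'0 hγ'1 hAB h) Ev (fun V _ => K V)
    (fun V G h => ⟨(hK V ((hEv V G).1 h).1).1, ((hEv V G).1 h).2.2⟩) (fun M X => 3 * a < inn D θ (H \ M) X)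
    (by
      intro V G _ _ _ hE U hU hc _
      obtain ⟨_, hng, _⟩ := (hEv V G).1 hE
      have h5 : ¬ good D θ ε₁ k₁ (H \ V) U G := fun h => hng ⟨U, hU, h⟩
      have h6 : ε₁ / ((U.card : ℝ) + 1) < inn D θ ((H \ V) \ G) (U ∪ G) := by
        by_contra h
        exact h5 ⟨hc, not_lt.1 h⟩
      rw [hsd, union_comm U G] at h6
      refine lt_of_le_of_lt ?_ h6
      rw [le_div_iff₀ (by positivity)]
      refine le_trans ?_ ha3
      have : (U.card : ℝ) ≤ k₁ := by exact_mod_cast hc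
      have h7 : (0 : ℝ) ≤ 3 * a := by linarith
      exact mul_le_mul_of_nonneg_left (by linarith) h7)
  refine h4.trans ?_
  gcongr
  -- step 4: the quenched inequality
  have h5 := hQ k a ε' ha hε'.le
  refine le_trans (T2_mono (G := fun V X => a⁻¹ *
        Th γ' (H \ (V ∪ X)) (fun G =>
      if (∃ Y ⊆ X, Y.card ≤ k ∧ inn D θ' ((H \ (V ∪ X)) \ G) (Y ∪ G) ≤ ε') ∧
        a < inn D θ₃ ((H \ (V ∪ X)) \ G) (X ∪ G) then 1 else 0)) (fun _ => hp0) hpg hpg1 H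
        fun V X _ _ _ => ?_) ?_
  · by_cases h : Fam D γ' θ' ε' a k (H \ (V ∪ X)) X ∧ 3 * a < inn D θ (H \ (V ∪ X)) X
    · rw [if_pos h, inv_mul_eq_div, le_div_iff₀ ha, one_mul]
      exact recycle hγ'0 hγ'1 hθ₃0 hθ₃1 r3 ha.le _ X h.1 h.2
    · rw [if_neg h]
      exact mul_nonneg (inv_nonneg.2 ha.le) (Th_nonneg hγ'0 hγ'1 fun _ _ => ind0)
  · rw [T2_mul]
    exact mul_le_mul_of_nonneg_left h5 (inv_nonneg.2 ha.le)

end Vale.Agent.P331.H225
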